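import Vale.Agent.P069.Defs

/-! General facts: reflexivity of `ℓ²`-sums, and the growth step for AUC norms. -/

namespace Vale.Agent.P069

open Finset Filter Topology

lemma reflexive_of_equiv {E G : Type*} [NormedAddCommGroup E] [NormedSpace ℝ E]
    [NormedAddCommGroup G] [InnerProductSpace ℝ G] [CompleteSpace G] (e : E ≃L[ℝ] G) :
    IsReflexiveSpace E := by
  intro Φ
  let A : G →L[ℝ] StrongDual ℝ E :=
    ((ContinuousLinearMap.compL ℝ E G ℝ).flip (e : E →L[ℝ] G)).comp (innerSL ℝ)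
  have hA : ∀ u x, A u x = inner ℝ u (e x) := fun u x => rfl
  refine ⟨e.symm ((InnerProductSpace.toDual ℝ G).symm (Φ.comp A)), ?_⟩
  ext f
  set u := (InnerProductSpace.toDual ℝ G).symm (f.comp (e.symm : G →L[ℝ] E)) with hu
  have hf : f = A u := by
    ext x
    rw [hA, hu, InnerProductSpace.toDual_symm_apply]
    simp
  rw [NormedSpace.dual_def]
  conv_lhs => rw [hf, hA]
  rw [ContinuousLinearEquiv.apply_symm_apply, real_inner_comm,
    InnerProductSpace.toDual_symm_apply, hf]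
  rfl

section lpsum

variable {E : ℕ → Type*} [∀ n, NormedAddCommGroup (E n)] [∀ n, NormedSpace ℝ (E n)]

omit [∀ n, NormedSpace ℝ (E n)] in
lemma lp_sum_sq_le (z : lp E 2) (S : Finset ℕ) : ∑ n ∈ S, ‖z n‖ ^ 2 ≤ ‖z‖ ^ 2 := by
  have := lp.sum_rpow_le_norm_rpow (p := 2) (by norm_num) z S
  simpa using this

lemma norm_sum_comp_eval_le (φ : ∀ n, StrongDual ℝ (E n)) (S : Finset ℕ) :
    ‖∑ n ∈ S, (φ n).comp (lp.evalCLM ℝ E 2 n)‖ ≤ √(∑ n ∈ S, ‖φ n‖ ^ 2) := by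
  refine ContinuousLinearMap.opNorm_le_bound _ (Real.sqrt_nonneg _) fun z => ?_
  rw [_root_.sum_apply]
  calc _ ≤ ∑ n ∈ S, ‖φ n‖ * ‖z n‖ := by
        refine (norm_sum_le _ _).trans (sum_le_sum fun n _ => ?_)
        exact (φ n).le_opNorm (z n)
    _ ≤ √(∑ n ∈ S, ‖φ n‖ ^ 2) * √(∑ n ∈ S, ‖z n‖ ^ 2) := Real.sum_mul_le_sqrt_mul_sqrt _ _ _
    _ ≤ _ := by
        gcongr
        exact Real.sqrt_le_iff.2 ⟨norm_nonneg _, lp_sum_sq_le z S⟩

lemma le_sq_of_le_mul_sqrt {A c : ℝ} (hA : 0 ≤ A) (h : A ≤ c * √A) : A ≤ c ^ 2 := by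
  have h1 := Real.sq_sqrt hA
  have h2 := Real.sqrt_nonneg A
  nlinarith [sq_nonneg (c - √A)]

theorem reflexive_lp (h : ∀ n, IsReflexiveSpace (E n)) : IsReflexiveSpace (lp E 2) := by
  classical
  intro Φ
  let π : ∀ n, lp E 2 →L[ℝ] E n := fun n => lp.evalCLM ℝ E 2 n
  let J : ∀ n, E n →L[ℝ] lp E 2 := fun n => lp.singleContinuousLinearMap ℝ E 2 n
  have hx : ∀ n, ∃ x : E n, ∀ φ : StrongDual ℝ (E n), φ x = Φ (φ.comp (π n)) := by
    intro n
    obtain ⟨x, hx⟩ := h n (Φ.comp ((ContinuousLinearMap.compL ℝ (lp E 2) (E n) ℝ).flip (π n)))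
    exact ⟨x, fun φ => by simpa using congrArg (fun Ψ => Ψ φ) hx⟩
  choose x hx using hx
  have hb : ∀ S : Finset ℕ, ∑ n ∈ S, ‖x n‖ ^ 2 ≤ ‖Φ‖ ^ 2 := by
    intro S
    choose g hg1 hg2 using fun n => exists_dual_vector'' ℝ (x n)
    refine le_sq_of_le_mul_sqrt (sum_nonneg fun _ _ => sq_nonneg _) ?_
    have h1 : Φ (∑ n ∈ S, (‖x n‖ • g n).comp (π n)) = ∑ n ∈ S, ‖x n‖ ^ 2 := by
      rw [map_sum]
      refine sum_congr rfl fun n _ => ?_
      rw [← hx]
      simp [hg2, sq]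
    have h2 := norm_sum_comp_eval_le (fun n => ‖x n‖ • g n) S
    have h3 : √(∑ n ∈ S, ‖‖x n‖ • g n‖ ^ 2) ≤ √(∑ n ∈ S, ‖x n‖ ^ 2) := by
      refine Real.sqrt_le_sqrt (sum_le_sum fun n _ => ?_)
      gcongr
      rw [norm_smul, norm_norm]
      exact mul_le_of_le_one_right (norm_nonneg _) (hg1 n)
    calc _ = Φ (∑ n ∈ S, (‖x n‖ • g n).comp (π n)) := h1.symm
      _ ≤ ‖Φ‖ * ‖∑ n ∈ S, (‖x n‖ • g n).comp (π n)‖ :=
        (le_abs_self _).trans (Φ.le_opNorm _)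
      _ ≤ _ := mul_le_mul_of_nonneg_left (h2.trans h3) Φ.opNorm_nonneg
  have hmem : Memℓp x 2 := memℓp_gen' (C := ‖Φ‖ ^ 2) fun S => by simpa using hb S
  let X : lp E 2 := ⟨x, hmem⟩
  refine ⟨X, ?_⟩
  ext f
  rw [NormedSpace.dual_def]
  let φ : ∀ n, StrongDual ℝ (E n) := fun n => f.comp (J n)
  have hφ : ∀ S : Finset ℕ, ∑ n ∈ S, ‖φ n‖ ^ 2 ≤ ‖f‖ ^ 2 := by
    intro S
    have hz : ∀ n, ∃ z : E n, ‖z‖ ≤ 1 ∧ φ n z = ‖φ n‖ := by
      intro n
      obtain ⟨Ψ, h1, h2⟩ := exists_dual_vector'' ℝ (φ n)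
      obtain ⟨z, rfl⟩ := h n Ψ
      refine ⟨z, ?_, h2⟩
      rw [← (NormedSpace.inclusionInDoubleDualLi (E := E n) ℝ).norm_map z]
      exact h1
    choose z hz1 hz2 using hz
    refine le_sq_of_le_mul_sqrt (sum_nonneg fun _ _ => sq_nonneg _) ?_
    have h1 : f (∑ n ∈ S, lp.single 2 n (‖φ n‖ • z n)) = ∑ n ∈ S, ‖φ n‖ ^ 2 := by
      rw [map_sum]
      refine sum_congr rfl fun n _ => ?_
      have : f (lp.single 2 n (‖φ n‖ • z n)) = φ n (‖φ n‖ • z n) := rfl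
      rw [this, map_smul, hz2, smul_eq_mul, sq]
    have h2 : ‖∑ n ∈ S, lp.single (E := E) 2 n (‖φ n‖ • z n)‖ ≤ √(∑ n ∈ S, ‖φ n‖ ^ 2) := by
      refine Real.le_sqrt_of_sq_le ?_
      have := lp.norm_sum_single (E := E) (p := 2) (by norm_num) (fun n => ‖φ n‖ • z n) S
      simp only [ENNReal.toReal_ofNat, Real.rpow_ofNat] at this
      rw [this]
      refine sum_le_sum fun n _ => ?_
      gcongr
      rw [norm_smul, norm_norm]
      exact mul_le_of_le_one_right (norm_nonneg _) (hz1 n)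
    calc _ = f (∑ n ∈ S, lp.single 2 n (‖φ n‖ • z n)) := h1.symm
      _ ≤ ‖f‖ * ‖∑ n ∈ S, lp.single (E := E) 2 n (‖φ n‖ • z n)‖ :=
        (le_abs_self _).trans (f.le_opNorm _)
      _ ≤ _ := mul_le_mul_of_nonneg_left h2 (norm_nonneg _)
  have hsum : Summable fun n => ‖φ n‖ ^ 2 := summable_of_sum_le (fun _ => sq_nonneg _) hφ
  have hsum2 : Summable fun n => (φ n).comp (π n) := by
    rw [summable_iff_vanishing_norm] at hsum ⊢
    intro ε hε
    obtain ⟨s, hs⟩ := hsum (ε ^ 2) (by positivity)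
    refine ⟨s, fun t ht => (norm_sum_comp_eval_le φ t).trans_lt ?_⟩
    rw [Real.sqrt_lt' hε]
    exact (le_abs_self _).trans_lt (hs t ht)
  have hev : ∀ z : lp E 2, HasSum (fun n => φ n (z n)) (f z) := fun z =>
    (lp.hasSum_single (by norm_num) z).mapL f
  have hf : HasSum (fun n => (φ n).comp (π n)) f := by
    convert hsum2.hasSum
    ext z
    exact (hev z).unique (hsum2.hasSum.mapL (ContinuousLinearMap.apply ℝ ℝ z))
  have h1 := hf.mapL Φ
  simp only [← hx] at h1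
  exact (hev X).unique h1

end lpsum

variable {X : Type*} [NormedAddCommGroup X] [NormedSpace ℝ X]

lemma exists_near {F : Submodule ℝ X} (hF : F ∈ Cof X) {y : ℕ → X}
    (hy : ∀ f : StrongDual ℝ X, Tendsto (fun i => f (y i)) atTop (𝓝 0)) {η : ℝ} (hη : 0 < η) :
    ∃ i, ∃ w ∈ F, ‖y i - w‖ < η := by
  have := hF.1
  have := hF.2
  let Q : X →L[ℝ] X ⧸ F := F.mkQL
  let b := Module.finBasis ℝ (X ⧸ F)
  have h1 : Tendsto (fun i => ∑ k, b.repr (Q (y i)) k • b k) atTop (𝓝 (∑ k, (0 : ℝ) • b k)) := by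
    refine tendsto_finsetSum _ fun k _ => Tendsto.smul_const ?_ _
    exact hy ((LinearMap.toContinuousLinearMap (b.coord k)).comp Q)
  simp only [b.sum_repr, zero_smul, sum_const_zero] at h1
  obtain ⟨i, hi⟩ := ((tendsto_zero_iff_norm_tendsto_zero.1 h1).eventually
    (gt_mem_nhds (half_pos hη))).exists
  obtain ⟨m, hm1, hm2⟩ := Submodule.Quotient.norm_mk_lt (Q (y i)) (half_pos hη)
  refine ⟨i, y i - m, ?_, ?_⟩
  · rw [← Submodule.Quotient.eq]
    exact hm1.symm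
  · rw [sub_sub_cancel]
    linarith

/-- The growth step along a weakly null sequence for an AUC norm. -/
lemma auc_step {M : Seminorm ℝ X} {C t δ : ℝ} (hC : ∀ x, M x ≤ C * ‖x‖) (ht : 0 < t) (hδ : 0 < δ)
    (hM : (δ : EReal) < aucModulus M t) {x : X} (hx : 0 < M x) {y : ℕ → X}
    (hy : ∀ f : StrongDual ℝ X, Tendsto (fun i => f (y i)) atTop (𝓝 0))
    (hy2 : ∀ i, 2 * t * M x ≤ M (y i)) :
    ∃ i, (1 + δ / 2) * M x ≤ M (x + y i) := by
  set a := M x with ha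
  have h1 : M (a⁻¹ • x) = 1 := by
    rw [map_smul_eq_mul, Real.norm_eq_abs, abs_of_pos (inv_pos.2 hx), inv_mul_cancel₀ hx.ne']
  have h2 := hM.trans_le (iInf₂_le (a⁻¹ • x) h1)
  obtain ⟨F, h2⟩ := lt_iSup_iff.1 h2
  obtain ⟨hF, h2⟩ := lt_iSup_iff.1 h2
  have h3 : ∀ u ∈ F, M u = 1 → 1 + δ < M (a⁻¹ • x + t • u) := by
    intro u hu hu1
    have := h2.trans_le ((iInf₂_le u hu).trans (iInf_le _ hu1))
    have := EReal.coe_lt_coe_iff.1 this
    linarith
  set η := min (t * a) (δ / 2 * a) with hη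
  have hη0 : 0 < η := lt_min (by positivity) (by positivity)
  have hC1 : 0 < |C| + 1 := by positivity
  obtain ⟨i, w, hw, hiw⟩ := exists_near hF hy (div_pos hη0 hC1)
  have hd : M (y i - w) ≤ η := by
    refine (hC _).trans ?_
    rw [lt_div_iff₀ hC1] at hiw
    nlinarith [le_abs_self C, norm_nonneg (y i - w)]
  have hw1 : t * a ≤ M w := by
    have := map_add_le_add M (y i - w) w
    rw [sub_add_cancel] at this
    have h4 := hy2 i
    have h5 : η ≤ t * a := min_le_left _ _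
    linarith
  have hw0 : 0 < M w := lt_of_lt_of_le (by positivity) hw1
  have h4 := h3 ((M w)⁻¹ • w) (F.smul_mem _ hw) (by
    rw [map_smul_eq_mul, Real.norm_eq_abs, abs_of_pos (inv_pos.2 hw0), inv_mul_cancel₀ hw0.ne'])
  set l := t * a / M w with hl
  have hl0 : 0 < l := by positivity
  have hl1 : l ≤ 1 := (div_le_one hw0).2 hw1
  have h5 : a⁻¹ • x + t • (M w)⁻¹ • w = (a⁻¹ * (1 - l)) • x + (a⁻¹ * l) • (x + w) := by
    have : t * (M w)⁻¹ = a⁻¹ * l := by rw [hl]; field_simp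
    rw [smul_smul, this]
    module
  rw [h5] at h4
  have h6 := h4.trans_le (map_add_le_add M _ _)
  rw [map_smul_eq_mul, map_smul_eq_mul, Real.norm_eq_abs, Real.norm_eq_abs,
    abs_of_nonneg (mul_nonneg (inv_pos.2 hx).le (by linarith)),
    abs_of_nonneg (mul_nonneg (inv_pos.2 hx).le hl0.le), ← ha] at h6
  have h7 : (1 + δ) * a ≤ M (x + w) := by
    have h8 : a⁻¹ * (1 - l) * a = 1 - l := by field_simp
    rw [h8] at h6
    have h9 : (δ + l) * a < l * M (x + w) := by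
      have : (δ + l) < a⁻¹ * l * M (x + w) := by linarith
      calc (δ + l) * a < a⁻¹ * l * M (x + w) * a := by gcongr
        _ = _ := by field_simp
    by_contra h10
    push Not at h10
    have : l * M (x + w) < l * ((1 + δ) * a) := by gcongr
    nlinarith [mul_pos hδ hx]
  refine ⟨i, ?_⟩
  have h8 := map_sub_le_add M (x + y i) (y i - w)
  rw [show x + y i - (y i - w) = x + w by abel] at h8
  have h9 : η ≤ δ / 2 * a := min_le_right _ _
  linarith

end Vale.Agent.P069
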