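import Vale.Agent.P069.Tree

/-! The key midpoint inequality for the tree norms. -/

namespace Vale.Agent.P069

open Finset

open Classical in
/-- The last ancestor lying in `T`. -/
noncomputable def anc (T : Set (List ℕ)) : List ℕ → List ℕ
  | [] => []
  | i :: s => if i :: s ∈ T then i :: s else anc T s

/-- A set of nodes closed under passing to the parent. -/
structure Rooted (T : Set (List ℕ)) : Prop where
  nil : [] ∈ T
  tail : ∀ i s, i :: s ∈ T → s ∈ T

lemma anc_of_mem {T : Set (List ℕ)} {s : List ℕ} (hs : s ∈ T) : anc T s = s := by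
  cases s with
  | nil => rfl
  | cons i s => simp [anc, hs]

lemma anc_of_not_mem {T : Set (List ℕ)} {i : ℕ} {s : List ℕ} (hs : i :: s ∉ T) :
    anc T (i :: s) = anc T s := by simp [anc, hs]

lemma anc_length (T : Set (List ℕ)) (s : List ℕ) : (anc T s).length ≤ s.length := by
  induction s with
  | nil => simp [anc]
  | cons i s ih =>
    by_cases h : i :: s ∈ T
    · rw [anc_of_mem h]
    · rw [anc_of_not_mem h]; simp; omega

lemma grad_anc_mem {T : Set (List ℕ)} (hT : Rooted T) (ψ : List ℕ → ℝ) {s : List ℕ}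
    (hs : s ∈ T) : grad (fun r => ψ (anc T r)) s = grad ψ s := by
  cases s with
  | nil => rfl
  | cons i s => simp [grad, anc_of_mem hs, anc_of_mem (hT.tail i s hs)]

lemma grad_anc_not_mem {T : Set (List ℕ)} (hT : Rooted T) (ψ : List ℕ → ℝ) {s : List ℕ}
    (hs : s ∉ T) : grad (fun r => ψ (anc T r)) s = 0 := by
  cases s with
  | nil => exact absurd hT.nil hs
  | cons i s => simp [grad, anc_of_not_mem hs]

/-- Clip `t` to have sign opposite to `a`. -/
noncomputable def clip (a t : ℝ) : ℝ := if 0 ≤ a then min t 0 else max t 0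

lemma clip_zero (a : ℝ) : clip a 0 = 0 := by unfold clip; split_ifs <;> simp

lemma clip_sub (a t : ℝ) : clip a t - clip a (-t) = t := by
  unfold clip
  split_ifs
  · rcases le_total t 0 with h | h
    · rw [min_eq_left h, min_eq_right (by linarith)]; ring
    · rw [min_eq_right h, min_eq_left (by linarith)]; ring
  · rcases le_total t 0 with h | h
    · rw [max_eq_right h, max_eq_left (by linarith)]; ring
    · rw [max_eq_left h, max_eq_right (by linarith)]; ring

lemma clip_lip (a t u : ℝ) : (clip a t - clip a u) ^ 2 ≤ (t - u) ^ 2 := by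
  unfold clip
  split_ifs
  · rcases le_total t 0 with h | h <;> rcases le_total u 0 with h' | h' <;>
      simp only [min_eq_left, min_eq_right, h, h'] <;> nlinarith
  · rcases le_total t 0 with h | h <;> rcases le_total u 0 with h' | h' <;>
      simp only [max_eq_left, max_eq_right, h, h'] <;> nlinarith

lemma abs_add_clip {a t ε : ℝ} (ha : |a| ≤ 1) (ht : |t| ≤ 2) (h0 : 0 ≤ ε) (h1 : ε ≤ 1 / 2) :
    |a + ε * clip a t| ≤ 1 := by
  obtain ⟨ha1, ha2⟩ := abs_le.1 ha
  obtain ⟨ht1, ht2⟩ := abs_le.1 ht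
  unfold clip
  split_ifs with h
  · have h2 : -2 ≤ min t 0 := le_min ht1 (by norm_num)
    have h3 : min t 0 ≤ 0 := min_le_right _ _
    rw [abs_le]; constructor <;> nlinarith
  · have h2 : max t 0 ≤ 2 := max_le ht2 (by norm_num)
    have h3 : 0 ≤ max t 0 := le_max_right _ _
    push Not at h
    rw [abs_le]; constructor <;> nlinarith

section

variable {n : ℕ} {T : Set (List ℕ)}

/-- The clipped perturbation. -/
noncomputable def pert (T : Set (List ℕ)) (φ θ : List ℕ → ℝ) (s : List ℕ) : ℝ :=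
  clip (φ (anc T s)) (θ s - θ (anc T s))

lemma grad_pert_mem (hT : Rooted T) (φ θ : List ℕ → ℝ) {s : List ℕ} (hs : s ∈ T) :
    grad (pert T φ θ) s = 0 := by
  cases s with
  | nil => simp [grad, pert, anc, clip_zero]
  | cons i s => simp [grad, pert, anc_of_mem hs, anc_of_mem (hT.tail i s hs), clip_zero]

lemma grad_pert_sq (hT : Rooted T) (φ θ : List ℕ → ℝ) (s : List ℕ) :
    grad (pert T φ θ) s ^ 2 ≤ grad θ s ^ 2 := by
  by_cases hs : s ∈ T
  · rw [grad_pert_mem hT φ θ hs]; simpa using sq_nonneg _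
  · cases s with
    | nil => exact absurd hT.nil hs
    | cons i s =>
      simp only [grad, pert, anc_of_not_mem hs]
      refine (clip_lip _ _ _).trans (le_of_eq ?_)
      ring

lemma grad_pert_sub (hT : Rooted T) (φ θ : List ℕ → ℝ) {s : List ℕ} (hs : s ∉ T) :
    grad (pert T φ θ) s - grad (pert T φ fun r => -θ r) s = grad θ s := by
  cases s with
  | nil => exact absurd hT.nil hs
  | cons i s =>
    simp only [grad, pert, anc_of_not_mem hs]
    have h1 := clip_sub (φ (anc T s)) (θ (i :: s) - θ (anc T s))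
    have h2 := clip_sub (φ (anc T s)) (θ s - θ (anc T s))
    rw [show -(θ (i :: s) - θ (anc T s)) = -θ (i :: s) - -θ (anc T s) by ring] at h1
    rw [show -(θ s - θ (anc T s)) = -θ s - -θ (anc T s) by ring] at h2
    linarith

lemma grad_comb (φ χ : List ℕ → ℝ) (ε r : ℝ) (s : List ℕ) :
    grad (fun u => (φ u + ε * χ u) / r) s = (grad φ s + ε * grad χ s) / r := by
  cases s with
  | nil => rfl
  | cons i s => simp only [grad]; ring

open Classical in
/-- The perturbed test functional. -/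
noncomputable def Test.perturb (hT : Rooted T) (p q : Test n) {ε : ℝ} (h0 : 0 ≤ ε)
    (h1 : ε ≤ 1 / 2) : Test n where
  ψ := fun u => (p.ψ (anc T u) + ε * pert T p.ψ q.ψ u) / (1 + ε ^ 2 / 2)
  S := p.S ∪ q.S
  supp := fun s hs => by
    rw [mem_union, not_or] at hs
    rw [grad_comb (fun u => p.ψ (anc T u))]
    have h2 : grad (pert T p.ψ q.ψ) s = 0 := by
      have := grad_pert_sq hT p.ψ q.ψ s
      rw [q.supp s hs.2] at this
      exact pow_eq_zero_iff (two_ne_zero) |>.1 (le_antisymm (by simpa using this) (sq_nonneg _))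
    have h3 : grad (fun u => p.ψ (anc T u)) s = 0 := by
      by_cases h : s ∈ T
      · rw [grad_anc_mem hT _ h, p.supp s hs.1]
      · exact grad_anc_not_mem hT _ h
    rw [h2, h3]; simp
  energy := by
    have hr : (0 : ℝ) < 1 + ε ^ 2 / 2 := by positivity
    have h2 : ∀ s, grad (fun u => (p.ψ (anc T u) + ε * pert T p.ψ q.ψ u) / (1 + ε ^ 2 / 2)) s ^ 2
        ≤ (grad p.ψ s ^ 2 + ε ^ 2 * grad q.ψ s ^ 2) / (1 + ε ^ 2 / 2) ^ 2 := by
      intro s
      rw [grad_comb (fun u => p.ψ (anc T u)), div_pow]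
      gcongr
      by_cases h : s ∈ T
      · rw [grad_anc_mem hT _ h, grad_pert_mem hT _ _ h]
        nlinarith [sq_nonneg (ε * grad q.ψ s)]
      · rw [grad_anc_not_mem hT _ h, zero_add, mul_pow]
        have := grad_pert_sq hT p.ψ q.ψ s
        nlinarith [sq_nonneg (grad p.ψ s), sq_nonneg ε]
    refine (sum_le_sum fun s _ => h2 s).trans ?_
    rw [← sum_div, sum_add_distrib, ← mul_sum, div_le_one (by positivity)]
    have h3 := p.energy_le (S := p.S ∪ q.S) subset_union_left
    have h4 := q.energy_le (S := p.S ∪ q.S) subset_union_right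
    nlinarith [sq_nonneg ε, sq_nonneg (ε ^ 2)]
  bound := fun s hs => by
    have hr : (0 : ℝ) < 1 + ε ^ 2 / 2 := by positivity
    rw [abs_div, abs_of_pos hr, div_le_one hr]
    have ha := p.bound (anc T s) ((anc_length T s).trans hs)
    have hb := q.bound (anc T s) ((anc_length T s).trans hs)
    have hc := q.bound s hs
    have : |q.ψ s - q.ψ (anc T s)| ≤ 2 := (abs_sub _ _).trans (by linarith)
    refine (abs_add_clip ha this h0 h1).trans ?_
    nlinarith [sq_nonneg ε]

lemma key_ev (hT : Rooted T) {x y : H} (hx : ∀ s, s ∉ T → x s = 0) (hy : ∀ s, s ∈ T → y s = 0)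
    (p q : Test n) {ε : ℝ} (h0 : 0 ≤ ε) (h1 : ε ≤ 1 / 2) :
    2 * p.ev x + ε * q.ev y ≤ (1 + ε ^ 2 / 2) * (nrm n (x + y) + nrm n (x - y)) := by
  classical
  have hr : (0 : ℝ) < 1 + ε ^ 2 / 2 := by positivity
  have e1 := ev_le_nrm (p.perturb hT q h0 h1) (x + y)
  have e2 := ev_le_nrm (p.perturb hT q.neg h0 h1) (x - y)
  have : (p.perturb hT q h0 h1).ev ⇑(x + y) + (p.perturb hT q.neg h0 h1).ev ⇑(x - y)
      = (2 * p.ev x + ε * q.ev y) / (1 + ε ^ 2 / 2) := by
    rw [p.ev_eq x (S := p.S ∪ q.S) subset_union_left, q.ev_eq y (S := p.S ∪ q.S) subset_union_right,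
      mul_sum, mul_sum, ← sum_add_distrib, sum_div]
    rw [Test.ev_eq _ _ (S := p.S ∪ q.S) (by rfl), Test.ev_eq _ _ (S := p.S ∪ q.S) (by rfl),
      ← sum_add_distrib]
    refine sum_congr rfl fun s _ => ?_
    simp only [Test.perturb, Test.neg]
    rw [grad_comb (fun u => p.ψ (anc T u)), grad_comb (fun u => p.ψ (anc T u))]
    simp only [lp.coeFn_add, lp.coeFn_sub, Pi.add_apply, Pi.sub_apply]
    by_cases h : s ∈ T
    · rw [grad_anc_mem hT _ h, grad_pert_mem hT _ _ h, grad_pert_mem hT _ _ h, hy s h]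
      ring
    · rw [grad_anc_not_mem hT _ h, hx s h, ← grad_pert_sub hT p.ψ q.ψ h]
      ring
  rw [← div_le_iff₀' hr, ← this]
  exact add_le_add e1 e2

lemma key_nrm (hT : Rooted T) {x y : H} (hx : ∀ s, s ∉ T → x s = 0) (hy : ∀ s, s ∈ T → y s = 0)
    {ε : ℝ} (h0 : 0 < ε) (h1 : ε ≤ 1 / 2) :
    2 * nrm n x + ε * nrm n y ≤ (1 + ε ^ 2 / 2) * (nrm n (x + y) + nrm n (x - y)) := by
  set R := (1 + ε ^ 2 / 2) * (nrm n (x + y) + nrm n (x - y))
  have h2 : ∀ q : Test n, nrm n x ≤ (R - ε * q.ev y) / 2 := fun q => nrm_le fun p => by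
    have : _ ≤ R := key_ev hT hx hy p q h0.le h1
    linarith
  have h3 : nrm n y ≤ (R - 2 * nrm n x) / ε := nrm_le fun q => by
    rw [le_div_iff₀ h0]
    have := h2 q
    linarith
  rw [le_div_iff₀ h0] at h3
  linarith

/-- The key inequality. -/
theorem key (hT : Rooted T) {x y : H} (hx : ∀ s, s ∉ T → x s = 0) (hy : ∀ s, s ∈ T → y s = 0) :
    2 * nrm n x ^ 2 + nrm n y ^ 2 / 4 ≤ nrm n (x + y) ^ 2 + nrm n (x - y) ^ 2 := by
  set a := nrm n x
  set b := nrm n y
  set u := nrm n (x + y)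
  set v := nrm n (x - y)
  have ha : 0 ≤ a := nrm_nonneg _ _
  have hb : 0 ≤ b := nrm_nonneg _ _
  have hu : 0 ≤ u := nrm_nonneg _ _
  have hv : 0 ≤ v := nrm_nonneg _ _
  have hab : 2 * a ≤ u + v := by
    have h1 := map_add_le_add (N n) (x + y) (x - y)
    have h2 := map_smul_eq_mul (N n) (2 : ℝ) x
    rw [show x + y + (x - y) = (2 : ℝ) • x by module, h2] at h1
    simpa [N_apply] using h1
  have hbb : 2 * b ≤ u + v := by
    have h1 := map_sub_le_add (N n) (x + y) (x - y)
    have h2 := map_smul_eq_mul (N n) (2 : ℝ) y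
    rw [show x + y - (x - y) = (2 : ℝ) • y by module, h2] at h1
    simpa [N_apply] using h1
  suffices h : 2 * (2 * a ^ 2 + b ^ 2 / 4) ≤ (u + v) ^ 2 by nlinarith [sq_nonneg (u - v)]
  rcases hb.eq_or_lt with hb0 | hb0
  · rw [← hb0]; nlinarith
  by_cases hc : 2 * a ≤ b
  · nlinarith
  push Not at hc
  have ha0 : 0 < a := by linarith
  have hk := key_nrm (n := n) hT hx hy (ε := b / (4 * a)) (by positivity)
    (by rw [div_le_iff₀ (by positivity)]; linarith)
  set w := b ^ 2 / (32 * a ^ 2) with hw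
  have hw0 : 0 ≤ w := by positivity
  have hw1 : w ≤ 1 / 8 := by rw [hw, div_le_iff₀ (by positivity)]; nlinarith
  have e1 : (b / (4 * a)) ^ 2 / 2 = w := by rw [hw]; field_simp; ring
  have e2 : b / (4 * a) * b = 8 * a * w := by rw [hw]; field_simp; ring
  have e3 : b ^ 2 = 32 * a ^ 2 * w := by rw [hw]; field_simp
  change 2 * a + b / (4 * a) * b ≤ (1 + (b / (4 * a)) ^ 2 / 2) * (u + v) at hk
  rw [e1, e2] at hk
  have h4 : 2 * a * (1 + 2 * w) ≤ u + v := by
    by_contra h5
    push Not at h5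
    have : (1 + w) * (u + v) < (1 + w) * (2 * a * (1 + 2 * w)) := by gcongr
    nlinarith [mul_nonneg ha hw0, mul_nonneg (mul_nonneg ha hw0) hw0]
  have h6 : (2 * a * (1 + 2 * w)) ^ 2 ≤ (u + v) ^ 2 := by gcongr
  rw [e3]
  nlinarith [sq_nonneg (a * w), mul_nonneg (sq_nonneg a) hw0]

end

end Vale.Agent.P069
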