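import Vale.Agent.P069.Key
import Vale.Agent.P069.General

/-! The counterexample space. -/

namespace Vale.Agent.P069

open Finset Filter Topology

/-- `ℓ²` of the tree, to be equipped with the `n`-th tree norm. -/
def Xn (_n : ℕ) : Type := H

noncomputable instance (n : ℕ) : AddCommGroup (Xn n) := inferInstanceAs (AddCommGroup H)
noncomputable instance (n : ℕ) : Module ℝ (Xn n) := inferInstanceAs (Module ℝ H)

/-- The identity map as a linear equivalence. -/
noncomputable def toH (n : ℕ) : Xn n ≃ₗ[ℝ] H := LinearEquiv.refl ℝ H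

noncomputable instance (n : ℕ) : Norm (Xn n) := ⟨fun z => nrm n (toH n z)⟩

lemma norm_Xn (n : ℕ) (z : Xn n) : ‖z‖ = nrm n (toH n z) := rfl

lemma core (n : ℕ) : NormedSpace.Core ℝ (Xn n) where
  norm_nonneg := fun z => nrm_nonneg n _
  norm_smul := fun c z => by
    rw [norm_Xn, norm_Xn, map_smul]; exact map_smul_eq_mul (N n) c _
  norm_triangle := fun x y => by
    rw [norm_Xn, norm_Xn, norm_Xn, map_add]; exact map_add_le_add (N n) _ _
  norm_eq_zero_iff := fun z => by
    rw [norm_Xn]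
    constructor
    · intro h
      have := norm_le_nrm n (toH n z)
      rw [h, mul_zero, norm_le_zero_iff] at this
      exact (toH n).map_eq_zero_iff.1 this
    · rintro rfl
      rw [map_zero]; exact map_zero (N n)

noncomputable instance (n : ℕ) : NormedAddCommGroup (Xn n) := NormedAddCommGroup.ofCore (core n)
noncomputable instance (n : ℕ) : NormedSpace ℝ (Xn n) := NormedSpace.ofCore (core n)

/-- The identity map as a continuous linear equivalence. -/
noncomputable def eqv (n : ℕ) : Xn n ≃L[ℝ] H :=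
  (toH n).toContinuousLinearEquivOfBounds (n + 1) 1 (fun z => norm_le_nrm n _)
    (fun z => by rw [one_mul]; exact nrm_le_norm n z)

lemma norm_eqv (n : ℕ) (z : Xn n) : ‖z‖ = nrm n (eqv n z) := rfl

lemma norm_eqv_symm (n : ℕ) (z : H) : ‖(eqv n).symm z‖ = nrm n z := rfl

instance (n : ℕ) : CompleteSpace (Xn n) :=
  (eqv n).isUniformEmbedding.isUniformInducing.completeSpace
    (by rw [(eqv n).surjective.range_eq]; exact isComplete_univ)

/-- The space. -/
abbrev Sp : Type := lp Xn 2

theorem reflexive_Sp : IsReflexiveSpace Sp := reflexive_lp fun n => reflexive_of_equiv (eqv n)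

/-- Embedding of the `n`-th summand. -/
noncomputable def emb (n : ℕ) : H →L[ℝ] Sp :=
  (lp.singleContinuousLinearMap ℝ Xn 2 n).comp ((eqv n).symm : H →L[ℝ] Xn n)

lemma norm_emb (n : ℕ) (z : H) : ‖emb n z‖ = nrm n z := by
  have : emb n z = lp.single 2 n ((eqv n).symm z) := rfl
  rw [this, lp.norm_single (by norm_num), norm_eqv_symm]

lemma weak_null (f : StrongDual ℝ H) (s : List ℕ) :
    Tendsto (fun i : ℕ => f (e (i :: s))) atTop (𝓝 0) := by
  set u := (InnerProductSpace.toDual ℝ H).symm f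
  have h1 : ∀ r, f (e r) = u r := by
    intro r
    rw [← InnerProductSpace.toDual_symm_apply, e, lp.inner_single_right]
    simp [u]
  simp only [h1]
  have h2 : Summable fun r => u r ^ 2 := summable_of_sum_le (fun _ => sq_nonneg _)
    (sum_sq_le_norm_sq u)
  have h3 : Summable fun i : ℕ => u (i :: s) ^ 2 :=
    h2.comp_injective (fun i j h => by simpa using h)
  have h4 := h3.tendsto_atTop_zero.sqrt
  rw [tendsto_zero_iff_norm_tendsto_zero]
  simpa [Real.sqrt_sq_eq_abs] using h4

theorem not_auc (M : Seminorm ℝ Sp) (hM : IsEquivNorm M) : ¬ IsAUC M := by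
  obtain ⟨c, C, hc, hM⟩ := hM
  intro hA
  have hC1 : 0 < |C| + 1 := by positivity
  have ht : 0 < c / (2 * (|C| + 1)) := by positivity
  obtain ⟨δ, hδ0, hδ⟩ := EReal.lt_iff_exists_real_btwn.1 (hA _ ht)
  have hδ0' : 0 < δ := by exact_mod_cast hδ0
  have hlow : ∀ n r, c ≤ M (emb n (e r)) := fun n r => by
    refine le_trans ?_ (hM _).1
    rw [norm_emb]
    exact le_mul_of_one_le_right hc.le (one_le_nrm_e n r)
  have hup : ∀ n (s : List ℕ), s.length ≤ n → M (emb n (vec s)) ≤ |C| + 1 := fun n s hs => by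
    refine (hM _).2.trans ?_
    rw [norm_emb]
    have h1 := nrm_vec_le hs
    have h2 := nrm_nonneg n (vec s)
    nlinarith [le_abs_self C, abs_nonneg C]
  have main : ∀ n k, k ≤ n → ∃ s : List ℕ, s.length = k ∧
      (1 + δ / 2) ^ k * c ≤ M (emb n (vec s)) := by
    intro n k
    induction k with
    | zero => exact fun _ => ⟨[], rfl, by simpa [vec] using hlow n []⟩
    | succ k ih =>
      intro hk
      obtain ⟨s, hs, h⟩ := ih (by omega)
      have hpos : 0 < M (emb n (vec s)) := lt_of_lt_of_le (by positivity) h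
      obtain ⟨i, hi⟩ := auc_step (fun x => (hM x).2) ht hδ0' hδ hpos
        (y := fun i => emb n (e (i :: s))) (fun f => weak_null (f.comp (emb n)) s) (fun i => by
          refine le_trans ?_ (hlow n _)
          have := hup n s (by omega)
          calc _ ≤ 2 * (c / (2 * (|C| + 1))) * (|C| + 1) := by gcongr
            _ = c := by field_simp)
      refine ⟨i :: s, by simp [hs], ?_⟩
      simp only [vec, map_add]
      refine le_trans ?_ hi
      rw [pow_succ', mul_assoc]
      gcongr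
  obtain ⟨n, hn⟩ := pow_unbounded_of_one_lt ((|C| + 1) / c) (show 1 < 1 + δ / 2 by linarith)
  obtain ⟨s, hs, h⟩ := main n n le_rfl
  have := hup n s hs.le
  rw [div_lt_iff₀ hc] at hn
  linarith

/-- Coordinates. -/
noncomputable def coord (n : ℕ) (s : List ℕ) : Sp →L[ℝ] ℝ :=
  (lp.evalCLM ℝ (fun _ : List ℕ => ℝ) 2 s).comp
    (((eqv n : Xn n →L[ℝ] H)).comp (lp.evalCLM ℝ Xn 2 n))

lemma coord_apply (n : ℕ) (s : List ℕ) (x : Sp) : coord n s x = eqv n (x n) s := rfl

/-- Finitely supported vectors. -/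
def Fin0 : Submodule ℝ Sp where
  carrier := {x | ∃ (A : Finset ℕ) (S : Finset (List ℕ)), ∀ n s, coord n s x ≠ 0 → n ∈ A ∧ s ∈ S}
  zero_mem' := ⟨∅, ∅, by simp⟩
  add_mem' := by
    classical
    rintro x y ⟨A, S, h⟩ ⟨B, U, h'⟩
    refine ⟨A ∪ B, S ∪ U, fun n s hs => ?_⟩
    by_cases hx : coord n s x = 0
    · rw [map_add, hx, zero_add] at hs
      simp [h' n s hs]
    · simp [h n s hx]
  smul_mem' := by
    rintro c x ⟨A, S, h⟩
    refine ⟨A, S, fun n s hs => h n s fun h0 => hs ?_⟩
    rw [map_smul, h0, smul_zero]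

lemma dense_Fin0 (x : Sp) : x ∈ Fin0.topologicalClosure := by
  classical
  have hc := Fin0.isClosed_topologicalClosure
  have h1 : ∀ n (z : H), emb n z ∈ Fin0.topologicalClosure := by
    intro n z
    have h := (lp.hasSum_single (by norm_num) z).mapL (emb n)
    refine hc.mem_of_tendsto h (Eventually.of_forall fun S => ?_)
    refine Submodule.sum_mem _ fun r _ => Fin0.le_topologicalClosure ⟨{n}, {r}, fun m s hs => ?_⟩
    have hemb : emb n (lp.single 2 r (z r)) = lp.single 2 n ((eqv n).symm (lp.single 2 r (z r))) :=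
      rfl
    rw [coord_apply, hemb] at hs
    by_cases hm : m = n
    · subst hm
      refine ⟨mem_singleton_self _, mem_singleton.2 ?_⟩
      by_contra hsr
      apply hs
      simp [lp.single_apply, Pi.single_eq_of_ne hsr]
    · exfalso
      apply hs
      simp [lp.single_apply, Pi.single_eq_of_ne hm]
  have h := lp.hasSum_single (by norm_num) x
  refine hc.mem_of_tendsto h (Eventually.of_forall fun A => ?_)
  refine Submodule.sum_mem _ fun n _ => ?_
  have := h1 n (eqv n (x n))
  have hemb : emb n (eqv n (x n)) = lp.single 2 n ((eqv n).symm (eqv n (x n))) := rfl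
  rwa [hemb, ContinuousLinearEquiv.symm_apply_apply] at this

lemma hasSum_sq (x : Sp) : HasSum (fun n => ‖x n‖ ^ 2) (‖x‖ ^ 2) := by
  have := lp.hasSum_norm (p := 2) (by norm_num) x
  simpa using this

lemma exists_cof {x : Sp} (hx : x ∈ Fin0) : ∃ F ∈ Cof Sp, ∀ y ∈ F,
    2 * ‖x‖ ^ 2 + ‖y‖ ^ 2 / 4 ≤ ‖x + y‖ ^ 2 + ‖x - y‖ ^ 2 := by
  classical
  obtain ⟨A, S, h⟩ := hx
  let T : Finset (List ℕ) := insert [] (S.biUnion fun r => r.tails.toFinset)
  have hT : Rooted (T : Set (List ℕ)) := by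
    refine ⟨by simp [T], fun i s hs => ?_⟩
    simp only [T, coe_insert, coe_biUnion, Set.mem_insert_iff, reduceCtorEq, false_or,
      Set.mem_iUnion, mem_coe, List.mem_toFinset, List.mem_tails] at hs ⊢
    obtain ⟨r, hr, hs⟩ := hs
    exact Or.inr ⟨r, hr, (List.suffix_cons i s).trans hs⟩
  have hST : ∀ s ∈ S, s ∈ (T : Set (List ℕ)) := fun s hs => by
    simp only [T, coe_insert, coe_biUnion, Set.mem_insert_iff,
      Set.mem_iUnion, mem_coe, List.mem_toFinset, List.mem_tails]
    exact Or.inr ⟨s, hs, List.suffix_rfl⟩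
  let L : Sp →L[ℝ] (A × T → ℝ) := ContinuousLinearMap.pi fun q => coord q.1 q.2
  refine ⟨L.ker, ⟨L.isClosed_ker, ?_⟩, fun y hy => ?_⟩
  · exact (L : Sp →ₗ[ℝ] (A × T → ℝ)).quotKerEquivRange.symm.finiteDimensional
  have hy' : ∀ n ∈ A, ∀ s ∈ T, coord n s y = 0 := fun n hn s hs =>
    congrFun (show L y = 0 from hy) (⟨n, hn⟩, ⟨s, hs⟩)
  refine hasSum_le (fun n => ?_) (((hasSum_sq x).mul_left 2).add ((hasSum_sq y).div_const 4))
    ((hasSum_sq (x + y)).add (hasSum_sq (x - y)))
  simp only [lp.coeFn_add, lp.coeFn_sub, Pi.add_apply, Pi.sub_apply]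
  by_cases hn : n ∈ A
  · simp only [norm_eqv, map_add, map_sub]
    refine key hT (fun s hs => ?_) (fun s hs => hy' n hn s hs)
    by_contra h0
    exact hs (hST s (h n s h0).2)
  · have : x n = 0 := by
      apply (eqv n).injective
      rw [map_zero]
      ext s
      by_contra h0
      exact hn (h n s h0).1
    rw [this, zero_add, zero_sub, norm_neg, norm_zero]
    nlinarith [sq_nonneg ‖y n‖]

theorem amuc : IsAMUC (normSeminorm ℝ Sp) := by
  intro t ht
  set γ := min 1 (t ^ 2 / 72) with hγ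
  have hγ0 : 0 < γ := lt_min one_pos (by positivity)
  have hγ1 : γ ≤ 1 := min_le_left _ _
  have hγ2 : γ ≤ t ^ 2 / 72 := min_le_right _ _
  refine lt_of_lt_of_le (EReal.coe_pos.2 hγ0) ?_
  refine le_iInf₂ fun x hx => ?_
  have hx1 : ‖x‖ = 1 := hx
  obtain ⟨x', hx', hd⟩ := Metric.mem_closure_iff.1 (dense_Fin0 x) γ hγ0
  rw [dist_eq_norm] at hd
  obtain ⟨F, hF, h⟩ := exists_cof hx'
  refine le_iSup₂_of_le F hF (le_iInf₂ fun y hy => le_iInf fun hy1 => ?_)
  have hy2 : ‖y‖ = 1 := hy1
  rw [EReal.coe_le_coe_iff]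
  simp only [coe_normSeminorm]
  have h1 := h (t • y) (F.smul_mem t hy)
  rw [norm_smul, hy2, mul_one, Real.norm_eq_abs, sq_abs] at h1
  set m := max ‖x + t • y‖ ‖x - t • y‖
  have h2 : ‖x' + t • y‖ ≤ m + γ := by
    have := norm_sub_le (x + t • y) (x - x')
    rw [show x + t • y - (x - x') = x' + t • y by abel] at this
    have h3 : ‖x + t • y‖ ≤ m := le_max_left _ _
    linarith
  have h3 : ‖x' - t • y‖ ≤ m + γ := by
    have := norm_sub_le (x - t • y) (x - x')
    rw [show x - t • y - (x - x') = x' - t • y by abel] at this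
    have h3 : ‖x - t • y‖ ≤ m := le_max_right _ _
    linarith
  have h4 : 1 - γ ≤ ‖x'‖ := by
    have := norm_add_le (x - x') x'
    rw [sub_add_cancel] at this
    linarith
  have h5 : (1 - γ) ^ 2 ≤ ‖x'‖ ^ 2 := by gcongr
  have h6 : ‖x' + t • y‖ ^ 2 ≤ (m + γ) ^ 2 := by gcongr
  have h7 : ‖x' - t • y‖ ^ 2 ≤ (m + γ) ^ 2 := by gcongr
  have hm : 0 ≤ m := (norm_nonneg _).trans (le_max_left _ _)
  have h8 : (1 + 2 * γ) ^ 2 ≤ (m + γ) ^ 2 := by nlinarith
  have h10 : 1 + 2 * γ ≤ m + γ := (abs_le_of_sq_le_sq' h8 (by linarith)).2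
  linarith

end Vale.Agent.P069
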