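import Mathlib

/-! The tree norms `N n` on `ℓ²(List ℕ)`. -/

namespace Vale.Agent.P069

open Finset

/-- The Hilbert space on the countably branching tree. -/
abbrev H : Type := lp (fun _ : List ℕ => ℝ) 2

/-- Increment of a potential along the edge from the parent. -/
def grad (ψ : List ℕ → ℝ) : List ℕ → ℝ
  | [] => ψ []
  | i :: s => ψ (i :: s) - ψ s

/-- The potential with prescribed increments. -/
def pot (ξ : List ℕ → ℝ) : List ℕ → ℝ
  | [] => ξ []
  | i :: s => pot ξ s + ξ (i :: s)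

lemma grad_pot (ξ : List ℕ → ℝ) (s : List ℕ) : grad (pot ξ) s = ξ s := by
  cases s with
  | nil => rfl
  | cons i s => simp [grad, pot]

lemma grad_neg (ψ : List ℕ → ℝ) (s : List ℕ) : grad (fun r => -ψ r) s = -grad ψ s := by
  cases s with
  | nil => rfl
  | cons i s => simp [grad]; ring

/-- Test functionals. -/
structure Test (n : ℕ) where
  ψ : List ℕ → ℝ
  S : Finset (List ℕ)
  supp : ∀ s, s ∉ S → grad ψ s = 0
  energy : ∑ s ∈ S, grad ψ s ^ 2 ≤ 1
  bound : ∀ s : List ℕ, s.length ≤ n → |ψ s| ≤ 1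

namespace Test

variable {n : ℕ}

/-- Evaluation. -/
def ev (p : Test n) (z : List ℕ → ℝ) : ℝ := ∑ s ∈ p.S, grad p.ψ s * z s

lemma ev_eq (p : Test n) (z : List ℕ → ℝ) {S : Finset (List ℕ)} (h : p.S ⊆ S) :
    p.ev z = ∑ s ∈ S, grad p.ψ s * z s :=
  sum_subset h fun s _ hs => by rw [p.supp s hs, zero_mul]

lemma energy_le (p : Test n) {S : Finset (List ℕ)} (h : p.S ⊆ S) :
    ∑ s ∈ S, grad p.ψ s ^ 2 ≤ 1 := by
  rw [← sum_subset h fun s _ hs => by rw [p.supp s hs]; ring]
  exact p.energy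

/-- The zero test. -/
def zero (n : ℕ) : Test n where
  ψ := fun _ => 0
  S := ∅
  supp := fun s _ => by cases s <;> simp [grad]
  energy := by simp
  bound := by simp

instance : Nonempty (Test n) := ⟨zero n⟩

/-- The negative of a test. -/
def neg (p : Test n) : Test n where
  ψ := fun r => -p.ψ r
  S := p.S
  supp := fun s hs => by rw [grad_neg, p.supp s hs, neg_zero]
  energy := by simpa [grad_neg] using p.energy
  bound := fun s hs => by simpa using p.bound s hs

lemma ev_neg (p : Test n) (z : List ℕ → ℝ) : p.neg.ev z = -p.ev z := by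
  simp [ev, neg, grad_neg]

end Test

lemma sum_sq_le_norm_sq (z : H) (S : Finset (List ℕ)) : ∑ s ∈ S, z s ^ 2 ≤ ‖z‖ ^ 2 := by
  have := lp.sum_rpow_le_norm_rpow (p := 2) (by norm_num) z S
  simpa using this

lemma Test.ev_le_norm {n : ℕ} (p : Test n) (z : H) : p.ev z ≤ ‖z‖ := by
  have h1 := sum_mul_sq_le_sq_mul_sq p.S (grad p.ψ) (fun s => z s)
  have h2 := sum_sq_le_norm_sq z p.S
  have h3 : (p.ev z) ^ 2 ≤ ‖z‖ ^ 2 := by
    refine h1.trans ?_
    calc _ ≤ 1 * ‖z‖ ^ 2 := by
          gcongr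
          exact p.energy
      _ = _ := one_mul _
  exact (abs_le_of_sq_le_sq' h3 (norm_nonneg _)).2

/-- The tree norm as a function. -/
noncomputable def nrm (n : ℕ) (z : H) : ℝ := ⨆ p : Test n, p.ev z

lemma bdd (n : ℕ) (z : H) : BddAbove (Set.range fun p : Test n => p.ev z) :=
  ⟨‖z‖, by rintro _ ⟨p, rfl⟩; exact p.ev_le_norm z⟩

lemma ev_le_nrm {n : ℕ} (p : Test n) (z : H) : p.ev z ≤ nrm n z := le_ciSup (bdd n z) p

lemma abs_ev_le_nrm {n : ℕ} (p : Test n) (z : H) : |p.ev z| ≤ nrm n z := by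
  refine abs_le.2 ⟨?_, ev_le_nrm p z⟩
  have := ev_le_nrm p.neg z
  rw [Test.ev_neg] at this
  linarith

lemma nrm_le {n : ℕ} {z : H} {c : ℝ} (h : ∀ p : Test n, p.ev z ≤ c) : nrm n z ≤ c := ciSup_le h

lemma nrm_le_norm (n : ℕ) (z : H) : nrm n z ≤ ‖z‖ := nrm_le fun p => p.ev_le_norm z

lemma nrm_nonneg (n : ℕ) (z : H) : 0 ≤ nrm n z :=
  (abs_nonneg _).trans (abs_ev_le_nrm (Test.zero n) z)

lemma ev_add {n : ℕ} (p : Test n) (x y : H) : p.ev ⇑(x + y) = p.ev x + p.ev y := by
  simp [Test.ev, mul_add, sum_add_distrib]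

lemma ev_smul {n : ℕ} (p : Test n) (c : ℝ) (x : H) : p.ev ⇑(c • x) = c * p.ev x := by
  simp only [Test.ev, lp.coeFn_smul, Pi.smul_apply, smul_eq_mul, mul_sum]
  exact sum_congr rfl fun _ _ => by ring

/-- The tree norm as a seminorm. -/
noncomputable def N (n : ℕ) : Seminorm ℝ H :=
  Seminorm.ofSMulLE (nrm n)
    (le_antisymm (by simpa using nrm_le_norm n 0) (nrm_nonneg n 0))
    (fun x y => nrm_le fun p => by
      rw [ev_add]; exact add_le_add (ev_le_nrm p x) (ev_le_nrm p y))
    (fun c x => nrm_le fun p => by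
      rw [ev_smul]
      calc c * p.ev x ≤ |c * p.ev x| := le_abs_self _
        _ = |c| * |p.ev x| := abs_mul _ _
        _ ≤ ‖c‖ * nrm n x := mul_le_mul_of_nonneg_left (abs_ev_le_nrm p x) (abs_nonneg c))

lemma N_apply (n : ℕ) (z : H) : N n z = nrm n z := rfl

lemma abs_pot_le (ξ : List ℕ → ℝ) {b : ℝ} (h : ∀ s, |ξ s| ≤ b) (s : List ℕ) :
    |pot ξ s| ≤ (s.length + 1) * b := by
  induction s with
  | nil => simpa [pot] using h []
  | cons i s ih =>
    simp only [pot, List.length_cons]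
    push_cast
    calc _ ≤ |pot ξ s| + |ξ (i :: s)| := abs_add_le _ _
      _ ≤ (s.length + 1) * b + b := add_le_add ih (h _)
      _ = _ := by ring

lemma norm_le_nrm (n : ℕ) (z : H) : ‖z‖ ≤ (n + 1) * nrm n z := by
  classical
  have hn : (0 : ℝ) < n + 1 := by positivity
  refine lp.norm_le_of_forall_sum_le (p := 2) (by norm_num)
    (mul_nonneg hn.le (nrm_nonneg n z)) fun S => ?_
  simp only [ENNReal.toReal_ofNat, Real.norm_eq_abs, Real.rpow_ofNat, sq_abs]
  set A : ℝ := √(∑ s ∈ S, z s ^ 2) with hA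
  have hA2 : A ^ 2 = ∑ s ∈ S, z s ^ 2 := Real.sq_sqrt (sum_nonneg fun _ _ => sq_nonneg _)
  have hA0 : 0 ≤ A := Real.sqrt_nonneg _
  rw [← hA2]
  refine pow_le_pow_left₀ hA0 ?_ 2
  rcases hA0.eq_or_lt with h0 | h0
  · rw [← h0]; exact mul_nonneg hn.le (nrm_nonneg n z)
  set ξ : List ℕ → ℝ := fun s => if s ∈ S then z s / ((n + 1) * A) else 0 with hξ
  have hb : ∀ s, |ξ s| ≤ 1 / (n + 1) := by
    intro s
    by_cases hs : s ∈ S
    · simp only [hξ, hs, if_true, abs_div]
      rw [abs_of_pos (mul_pos hn h0), div_le_div_iff₀ (mul_pos hn h0) hn]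
      have : |z s| ≤ A := by
        refine abs_le_of_sq_le_sq' ?_ hA0 |> abs_le.2
        rw [hA2]
        exact single_le_sum (f := fun s => z s ^ 2) (fun _ _ => sq_nonneg _) hs
      nlinarith
    · simp only [hξ, hs, if_false, abs_zero]; positivity
  let p : Test n :=
    { ψ := pot ξ
      S := S
      supp := fun s hs => by simp [grad_pot, hξ, hs]
      energy := by
        simp only [grad_pot]
        have : ∑ s ∈ S, ξ s ^ 2 = (∑ s ∈ S, z s ^ 2) / ((n + 1) * A) ^ 2 := by
          rw [sum_div]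
          exact sum_congr rfl fun s hs => by simp [hξ, hs, div_pow]
        rw [this, ← hA2, div_le_one (by positivity), mul_pow]
        have : (1 : ℝ) ≤ (n + 1) ^ 2 := one_le_pow₀ (by linarith [Nat.cast_nonneg (α := ℝ) n])
        nlinarith [sq_nonneg A]
      bound := fun s hs => by
        refine (abs_pot_le ξ hb s).trans ?_
        rw [mul_one_div, div_le_one hn]
        have : (s.length : ℝ) ≤ n := by exact_mod_cast hs
        linarith }
  have h1 := ev_le_nrm p z
  have h2 : p.ev z = A / (n + 1) := by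
    simp only [Test.ev, p, grad_pot]
    have : ∑ s ∈ S, ξ s * z s = (∑ s ∈ S, z s ^ 2) / ((n + 1) * A) := by
      rw [sum_div]
      exact sum_congr rfl fun s hs => by simp only [hξ, hs, if_true]; ring
    rw [this, ← hA2]
    field_simp
  rw [h2, div_le_iff₀ hn] at h1
  linarith

/-- The basis vectors. -/
noncomputable def e (r : List ℕ) : H := lp.single 2 r (1 : ℝ)

lemma ev_e {n : ℕ} (p : Test n) (r : List ℕ) : p.ev (e r) = grad p.ψ r := by
  classical
  rw [p.ev_eq _ (S := insert r p.S) (subset_insert _ _), sum_eq_single r]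
  · simp [e]
  · intro b _ hb
    simp [e, lp.single_apply, Pi.single_eq_of_ne hb]
  · simp

/-- Sums of the basis vectors along a branch. -/
noncomputable def vec : List ℕ → H
  | [] => e []
  | i :: s => vec s + e (i :: s)

lemma ev_vec {n : ℕ} (p : Test n) (s : List ℕ) : p.ev (vec s) = p.ψ s := by
  induction s with
  | nil => simp [vec, ev_e, grad]
  | cons i s ih => simp only [vec]; rw [ev_add, ih, ev_e]; simp [grad]

lemma nrm_vec_le {n : ℕ} {s : List ℕ} (hs : s.length ≤ n) : nrm n (vec s) ≤ 1 :=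
  nrm_le fun p => by rw [ev_vec]; exact (le_abs_self _).trans (p.bound s hs)

lemma one_le_nrm_e (n : ℕ) (r : List ℕ) : 1 ≤ nrm n (e r) := by
  classical
  set ξ : List ℕ → ℝ := fun s => if s = r then 1 else 0 with hξ
  have key : ∀ s : List ℕ, (s.length < r.length → pot ξ s = 0) ∧ (pot ξ s = 0 ∨ pot ξ s = 1) := by
    intro s
    induction s with
    | nil =>
      by_cases h : [] = r
      · subst h; simp [pot, hξ]
      · simp [pot, hξ, h]
    | cons i s ih =>
      by_cases h : i :: s = r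
      · have h0 := ih.1 (by rw [← h]; simp)
        have h1 : ξ (i :: s) = 1 := by simp [hξ, h]
        refine ⟨fun hl => ?_, Or.inr (by simp only [pot, h0, h1, zero_add])⟩
        rw [← h] at hl
        exact absurd hl (lt_irrefl _)
      · simp only [pot, hξ, h, if_false, add_zero]
        refine ⟨fun hl => ih.1 ?_, ih.2⟩
        simp at hl; omega
  let p : Test n :=
    { ψ := pot ξ
      S := {r}
      supp := fun s hs => by
        have : s ≠ r := by simpa using hs
        simp [grad_pot, hξ, this]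
      energy := by simp [grad_pot, hξ]
      bound := fun s _ => by rcases (key s).2 with h | h <;> simp [h] }
  have := ev_le_nrm p (e r)
  rw [ev_e] at this
  simpa [p, grad_pot, hξ] using this

end Vale.Agent.P069
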